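import Vale.Agent.P246.R2.H429.Defs5
import Vale.Agent.P246.T.YC

/-! # P246, ROW HOM: presentation complexes of the same presentation are homeomorphic -/

namespace Vale.Agent.P246.H111.HOM

open Vale.Agent.P246 Vale.Agent.P246.T Vale.Agent.P246.H429 Topology Metric Set

/-- the disjoint union of the cells -/
abbrev K (m l : ℕ) : Type := Unit ⊕ ((Σ _ : Fin m, Dk 1) ⊕ (Σ _ : Fin l, Dk 2))

section

variable {G : Type} [Group G] {Pr : FinPresentation G} {X E : Type} [TopologicalSpace X]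
    [TopologicalSpace E] [MulAction G E] [ContinuousConstSMul G E] {p : C(E, X)}

/-- the map of the cells onto the complex -/
noncomputable def F (c : PresCx Pr p) : K Pr.gens Pr.rels → X :=
  Sum.elim (fun _ => p c.e) (Sum.elim (fun q => p (c.edge q.1 q.2)) fun q => p (c.b q.1 q.2))

theorem F_cont (c : PresCx Pr p) : Continuous (F c) := by
  refine continuous_sumElim.2 ⟨continuous_const, continuous_sumElim.2 ⟨?_, ?_⟩⟩
  · refine continuous_sigma fun i => ?_
    exact p.continuous.comp (c.edge i).continuous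
  · refine continuous_sigma fun i => ?_
    exact p.continuous.comp (c.b i).continuous

theorem e_Y1 (c : PresCx Pr p) (k : ℕ) : p c.e ∈ c.Y1 k := Or.inl rfl

theorem mem_Y1 (c : PresCx Pr p) (k : ℕ) (i : Fin Pr.gens) (h : (i : ℕ) < k) (z : Dk 1) :
    p (c.edge i z) ∈ c.Y1 k := Or.inr (mem_iUnion₂.2 ⟨i, h, z, rfl⟩)

theorem Y1_Y2 (c : PresCx Pr p) (k : ℕ) : c.Y1 Pr.gens ⊆ c.Y2 k := subset_union_left

theorem mem_Y2 (c : PresCx Pr p) (k : ℕ) (j : Fin Pr.rels) (h : (j : ℕ) < k) (z : Dk 2) :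
    p (c.b j z) ∈ c.Y2 k := Or.inr (mem_iUnion₂.2 ⟨j, h, z, rfl⟩)

theorem F_mem (c : PresCx Pr p) (k : K Pr.gens Pr.rels) : F c k ∈ c.Y := by
  rcases k with _ | ⟨i, z⟩ | ⟨j, z⟩
  · exact Y1_Y2 c _ (e_Y1 c _)
  · exact Y1_Y2 c _ (mem_Y1 c _ i i.2 z)
  · exact mem_Y2 c _ j j.2 z

theorem F_surj (c : PresCx Pr p) (y : X) (hy : y ∈ c.Y) : ∃ k, F c k = y := by
  rcases hy with (hy | hy) | hy
  · exact ⟨Sum.inl (), (mem_singleton_iff.1 hy).symm⟩
  · obtain ⟨i, _, z, hz⟩ := mem_iUnion₂.1 hy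
    exact ⟨Sum.inr (Sum.inl ⟨i, z⟩), hz⟩
  · obtain ⟨j, _, z, hz⟩ := mem_iUnion₂.1 hy
    exact ⟨Sum.inr (Sum.inr ⟨j, z⟩), hz⟩

/-- the vertex and the points of the open cells -/
def NF {m l : ℕ} : K m l → Prop
  | Sum.inl _ => True
  | Sum.inr (Sum.inl q) => ‖(q.2 : Fin 1 → ℝ)‖ < 1
  | Sum.inr (Sum.inr q) => ‖(q.2 : Fin 2 → ℝ)‖ < 1

theorem F_inj (c : PresCx Pr p) (hc : c.Good) (k l : K Pr.gens Pr.rels) (hk : NF k) (hl : NF l)
    (h : F c k = F c l) : k = l := by
  rcases k with ⟨⟩ | ⟨i, z⟩ | ⟨j, z⟩ <;> rcases l with ⟨⟩ | ⟨i', z'⟩ | ⟨j', z'⟩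
  · rfl
  · refine absurd ?_ ((hc.att1 i').int z' hl)
    have h1 := e_Y1 c i'
    change p c.e = p (c.edge i' z') at h
    rw [h] at h1
    exact h1
  · refine absurd ?_ ((hc.att2 j').int z' hl)
    have h1 := Y1_Y2 c j' (e_Y1 c _)
    change p c.e = p (c.b j' z') at h
    rw [h] at h1
    exact h1
  · refine absurd ?_ ((hc.att1 i).int z hk)
    have h1 := e_Y1 c i
    change p (c.edge i z) = p c.e at h
    rw [← h] at h1
    exact h1
  · change p (c.edge i z) = p (c.edge i' z') at h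
    rcases lt_trichotomy (i : ℕ) (i' : ℕ) with h1 | h1 | h1
    · refine absurd ?_ ((hc.att1 i').int z' hl)
      have h2 := mem_Y1 c i' i h1 z
      rw [h] at h2
      exact h2
    · obtain rfl : i = i' := Fin.ext h1
      have h2 := (hc.att1 i).inj z z' hk hl h
      rw [h2]
    · refine absurd ?_ ((hc.att1 i).int z hk)
      have h2 := mem_Y1 c i i' h1 z'
      rw [← h] at h2
      exact h2
  · change p (c.edge i z) = p (c.b j' z') at h
    refine absurd ?_ ((hc.att2 j').int z' hl)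
    have h1 := Y1_Y2 c j' (mem_Y1 c _ i i.2 z)
    rw [h] at h1
    exact h1
  · change p (c.b j z) = p c.e at h
    refine absurd ?_ ((hc.att2 j).int z hk)
    have h1 := Y1_Y2 c j (e_Y1 c _)
    rw [← h] at h1
    exact h1
  · change p (c.b j z) = p (c.edge i' z') at h
    refine absurd ?_ ((hc.att2 j).int z hk)
    have h1 := Y1_Y2 c j (mem_Y1 c _ i' i'.2 z')
    rw [← h] at h1
    exact h1
  · change p (c.b j z) = p (c.b j' z') at h
    rcases lt_trichotomy (j : ℕ) (j' : ℕ) with h1 | h1 | h1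
    · refine absurd ?_ ((hc.att2 j').int z' hl)
      have h2 := mem_Y2 c j' j h1 z
      rw [h] at h2
      exact h2
    · obtain rfl : j = j' := Fin.ext h1
      have h2 := (hc.att2 j).inj z z' hk hl h
      rw [h2]
    · refine absurd ?_ ((hc.att2 j).int z hk)
      have h2 := mem_Y2 c j j' h1 z'
      rw [← h] at h2
      exact h2

end

/-- the point `2 t - 1` of the segment -/
noncomputable def seg (t : I) : Dk 1 := ⟨fun _ => 2 * (t : ℝ) - 1, by
  rw [mem_closedBall_zero_iff, pi_norm_le_iff_of_nonneg zero_le_one]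
  intro _
  have h0 := t.2.1
  have h1 := t.2.2
  rw [Real.norm_eq_abs, abs_le]
  constructor <;> linarith⟩

theorem par_seg (t : I) : par ((seg t : Fin 1 → ℝ) 0) = t := by
  change par (2 * (t : ℝ) - 1) = t
  apply Subtype.ext
  have h0 := t.2.1
  have h1 := t.2.2
  rw [par, Set.coe_projIcc]
  have : ((2 * (t : ℝ) - 1 + 1) / 2) = t := by ring
  rw [this, min_eq_right h1, max_eq_right h0]

theorem norm_seg (t : I) (h0 : t ≠ 0) (h1 : t ≠ 1) : ‖(seg t : Fin 1 → ℝ)‖ < 1 := by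
  rw [pi_norm_lt_iff zero_lt_one]
  intro _
  have h2 : (0 : ℝ) < t := lt_of_le_of_ne t.2.1 fun h => h0 (Subtype.ext h.symm)
  have h3 : (t : ℝ) < 1 := lt_of_le_of_ne t.2.2 fun h => h1 (Subtype.ext h)
  change ‖2 * (t : ℝ) - 1‖ < 1
  rw [Real.norm_eq_abs, abs_lt]
  constructor <;> linarith

section two

variable {G : Type} [Group G] {Pr : FinPresentation G} {X E : Type} [TopologicalSpace X]
    [TopologicalSpace E] [MulAction G E] [ContinuousConstSMul G E] {p : C(E, X)}
    {X' E' : Type} [TopologicalSpace X'] [TopologicalSpace E'] [MulAction G E']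
    [ContinuousConstSMul G E'] {p' : C(E', X')}
    (hp : IsQuotientCoveringMap p G) (hp' : IsQuotientCoveringMap p' G)
    (c : PresCx Pr p) (c' : PresCx Pr p')

include hp hp'

theorem nf_edge (i : Fin Pr.gens) (t : I) :
    ∃ n, NF n ∧ p (c.a i t) = F c n ∧ p' (c'.a i t) = F c' n := by
  by_cases h0 : t = 0
  · subst h0
    refine ⟨Sum.inl (), trivial, ?_, ?_⟩
    · rw [(c.a i).source]; rfl
    · rw [(c'.a i).source]; rfl
  by_cases h1 : t = 1
  · subst h1
    refine ⟨Sum.inl (), trivial, ?_, ?_⟩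
    · rw [(c.a i).target, hp.map_smul]; rfl
    · rw [(c'.a i).target, hp'.map_smul]; rfl
  · refine ⟨Sum.inr (Sum.inl ⟨i, seg t⟩), norm_seg t h0 h1, ?_, ?_⟩
    · change _ = p (c.a i (par ((seg t : Fin 1 → ℝ) 0)))
      rw [par_seg]
    · change _ = p' (c'.a i (par ((seg t : Fin 1 → ℝ) 0)))
      rw [par_seg]

theorem nf_word (w : List (Fin Pr.gens × Bool)) (t : I) :
    ∃ n, NF n ∧ p (wpath Pr.x c.a w t) = F c n ∧ p' (wpath Pr.x c'.a w t) = F c' n := by
  induction w generalizing t with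
  | nil => exact ⟨Sum.inl (), trivial, rfl, rfl⟩
  | cons l w ih =>
    rw [YC.wpath_cons, YC.wpath_cons, Path.trans_apply, Path.trans_apply]
    split_ifs with h
    · obtain ⟨i, b⟩ := l
      cases b
      · rw [YC.lpath_false, YC.lpath_false, hp.map_smul, hp'.map_smul]
        exact nf_edge hp hp' c c' i _
      · rw [YC.lpath_true, YC.lpath_true]
        exact nf_edge hp hp' c c' i _
    · obtain ⟨n, h1, h2, h3⟩ := ih ⟨2 * t - 1, unitInterval.two_mul_sub_one_mem_iff.2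
        ⟨(not_le.1 h).le, t.2.2⟩⟩
      refine ⟨n, h1, ?_, ?_⟩
      · rw [← h2]
        exact hp.map_smul _
      · rw [← h3]
        exact hp'.map_smul _

theorem nf (k : K Pr.gens Pr.rels) : ∃ n, NF n ∧ F c k = F c n ∧ F c' k = F c' n := by
  rcases k with ⟨⟩ | ⟨i, z⟩ | ⟨j, z⟩
  · exact ⟨Sum.inl (), trivial, rfl, rfl⟩
  · exact nf_edge hp hp' c c' i (par ((z : Fin 1 → ℝ) 0))
  · rcases (mem_closedBall_zero_iff.1 z.2).lt_or_eq with h | h
    · exact ⟨Sum.inr (Sum.inr ⟨j, z⟩), h, rfl, rfl⟩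
    · have h1 := c.bdry j z h
      have h2 := c'.bdry j z h
      by_cases h3 : (z : Fin 2 → ℝ) 0 = 1
      · obtain ⟨n, h4, h5, h6⟩ := nf_word hp hp' c c' (Pr.r j).toWord (par ((z : Fin 2 → ℝ) 1))
        refine ⟨n, h4, ?_, ?_⟩
        · rw [← h5, ← h1.1 h3]; rfl
        · rw [← h6, ← h2.1 h3]; rfl
      · refine ⟨Sum.inl (), trivial, ?_, ?_⟩
        · exact congrArg p (h1.2 h3)
        · exact congrArg p' (h2.2 h3)

theorem ker_le (hc : c.Good) (k l : K Pr.gens Pr.rels) (h : F c k = F c l) :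
    F c' k = F c' l := by
  obtain ⟨n, h1, h2, h3⟩ := nf hp hp' c c' k
  obtain ⟨n', h1', h2', h3'⟩ := nf hp hp' c c' l
  have : n = n' := F_inj c hc n n' h1 h1' (by rw [← h2, ← h2', h])
  rw [h3, h3', this]

end two

/-- the map onto the complex -/
noncomputable def FY {G : Type} [Group G] {Pr : FinPresentation G} {X E : Type}
    [TopologicalSpace X] [TopologicalSpace E] [MulAction G E] [ContinuousConstSMul G E]
    {p : C(E, X)} (c : PresCx Pr p) : C(K Pr.gens Pr.rels, c.Y) :=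
  ⟨fun k => ⟨F c k, F_mem c k⟩, (F_cont c).subtype_mk _⟩

theorem quot {G : Type} [Group G] {Pr : FinPresentation G} {X E : Type}
    [TopologicalSpace X] [T2Space X] [TopologicalSpace E] [MulAction G E]
    [ContinuousConstSMul G E] {p : C(E, X)} (c : PresCx Pr p) : IsQuotientMap (FY c) := by
  refine IsQuotientMap.of_surjective_continuous ?_ (FY c).continuous
  rintro ⟨y, hy⟩
  obtain ⟨k, hk⟩ := F_surj c y hy
  exact ⟨k, Subtype.ext hk⟩

/-- ROW HOM. -/
theorem hom : SpecHom := by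
  intro G X E X' E' _ _ _ _ _ _ p _ _ _ _ _ p' hp hp' Pr c c' hc hc'
  have hk : Setoid.ker (FY c) = Setoid.ker (FY c') := by
    ext k l
    rw [Setoid.ker_def, Setoid.ker_def]
    constructor
    · intro h
      exact Subtype.ext (ker_le hp hp' c c' hc k l (congrArg Subtype.val h))
    · intro h
      exact Subtype.ext (ker_le hp' hp c' c hc' k l (congrArg Subtype.val h))
  have h1 : Nonempty (Quotient (Setoid.ker (FY c')) ≃ₜ c'.Y) := ⟨(quot c').homeomorph⟩
  rw [← hk] at h1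
  obtain ⟨φ⟩ := h1
  exact ⟨(quot c).homeomorph.symm.trans φ⟩

end Vale.Agent.P246.H111.HOM
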