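import Vale.Agent.P246.R2.H429.Defs4
import Vale.Agent.P246.T.YP.Dec
import Vale.Agent.P246.T.YP.PC
import Vale.Agent.P246.T.CC.CC1
import Mathlib.Analysis.Normed.Module.Connected

/-! # P246, ROW TW3: simple connectivity of the covering of the wedge -/

namespace Vale.Agent.P246.H111

open Vale.Agent.P246 Vale.Agent.P246.T Vale.Agent.P246.H429 Topology Metric Set

/-- If every path below with ends in `A` can be deformed into `A` and every point below can be
joined to `A`, then simple connectivity passes from the preimage of `A` to the whole covering. -/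
theorem kl {E X : Type} [TopologicalSpace E] [TopologicalSpace X] {p : E → X}
    (cov : IsCoveringMap p) (A : Set X)
    (H1 : ∀ (u v : X) (γ : Path u v), u ∈ A → v ∈ A →
      ∃ δ : Path u v, γ.Homotopic δ ∧ ∀ t, δ t ∈ A)
    (H2 : ∀ x : X, ∃ a ∈ A, Joined x a) (H3 : IsSimplyConnected (p ⁻¹' A)) :
    SimplyConnectedSpace E := by
  have hpc := H3.isPathConnected
  have hj : ∀ e : E, ∃ e' ∈ p ⁻¹' A, Joined e e' := by
    intro e
    obtain ⟨a, ha, ⟨γ⟩⟩ := H2 (p e)
    refine ⟨cov.liftPath γ e γ.source 1, ?_,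
      ⟨⟨cov.liftPath γ e γ.source, cov.liftPath_zero .., rfl⟩⟩⟩
    have h1 := congr_fun (cov.liftPath_lifts γ e γ.source) 1
    change p (cov.liftPath γ e γ.source 1) ∈ A
    have h2 : p (cov.liftPath γ e γ.source 1) = γ 1 := h1
    rw [h2, γ.target]
    exact ha
  have hl : ∀ e ∈ p ⁻¹' A, ∀ γ : Path e e, γ.Homotopic (Path.refl e) := by
    intro e he γ
    obtain ⟨δ, hδ, hδA⟩ := H1 (p e) (p e) (γ.map cov.continuous) he he
    have h1 := cov.homotopicRel_liftPath hδ e (γ.map cov.continuous).source δ.source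
    have h2 := cov.liftPath_apply_one_eq_of_homotopicRel hδ e (γ.map cov.continuous).source
      δ.source
    have h3 : γ.toContinuousMap = cov.liftPath (γ.map cov.continuous).toContinuousMap e
        (γ.map cov.continuous).source :=
      (cov.eq_liftPath_iff' _).mpr ⟨rfl, γ.source⟩
    have h4 : cov.liftPath δ.toContinuousMap e δ.source 1 = e := by
      rw [← h2, ← h3]
      exact γ.target
    let δ' : Path e e := ⟨cov.liftPath δ.toContinuousMap e δ.source, cov.liftPath_zero .., h4⟩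
    have h5 : γ.Homotopic δ' := by
      rw [← h3] at h1
      exact h1
    have h6 : ∀ t, δ' t ∈ p ⁻¹' A := by
      intro t
      have h7 : p (cov.liftPath δ.toContinuousMap e δ.source t) = δ t :=
        congr_fun (cov.liftPath_lifts δ.toContinuousMap e δ.source) t
      change p (cov.liftPath δ.toContinuousMap e δ.source t) ∈ A
      rw [h7]
      exact hδA t
    obtain ⟨F, _⟩ := (isSimplyConnected_iff_exists_homotopy_refl_forall_mem.1 H3).2 e δ' h6
    exact h5.trans ⟨F⟩
  rw [simply_connected_iff_loops_nullhomotopic]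
  refine ⟨?_, ?_⟩
  · obtain ⟨e0, he0, hall⟩ := hpc
    refine ⟨⟨e0⟩, fun x y => ?_⟩
    obtain ⟨x', hx', hxx⟩ := hj x
    obtain ⟨y', hy', hyy⟩ := hj y
    exact (hxx.trans (hall hx').joined.symm).trans ((hall hy').joined.trans hyy.symm)
  · intro x γ
    obtain ⟨x', hx', ⟨σ⟩⟩ := hj x
    have h1 := hl x' hx' ((σ.symm.trans γ).trans σ)
    rw [← Path.Homotopic.Quotient.eq] at h1 ⊢
    rw [Path.Homotopic.Quotient.mk_trans, Path.Homotopic.Quotient.mk_trans,
      Path.Homotopic.Quotient.mk_symm, Path.Homotopic.Quotient.mk_refl] at h1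
    rw [Path.Homotopic.Quotient.mk_refl]
    set s := Path.Homotopic.Quotient.mk σ with hs
    set g := Path.Homotopic.Quotient.mk γ with hg
    have h2 : (s.trans ((s.symm.trans g).trans s)).trans s.symm = g := by
      simp only [Path.Homotopic.Quotient.trans_assoc, Path.Homotopic.Quotient.trans_symm,
        Path.Homotopic.Quotient.trans_refl]
      rw [← Path.Homotopic.Quotient.trans_assoc, Path.Homotopic.Quotient.trans_symm,
        Path.Homotopic.Quotient.refl_trans]
    rw [← h2, h1, Path.Homotopic.Quotient.trans_refl, Path.Homotopic.Quotient.trans_symm]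

/-- the boundary of the square is path connected -/
theorem sq_joined (x y : Dk 2) (hx : ‖(x : Fin 2 → ℝ)‖ = 1) (hy : ‖(y : Fin 2 → ℝ)‖ = 1) :
    ∃ σ : Path x y, ∀ t, ‖(σ t : Fin 2 → ℝ)‖ = 1 := by
  have hr : 1 < Module.rank ℝ (Fin 2 → ℝ) := by
    rw [rank_fin_fun]
    norm_num
  have h1 : JoinedIn (sphere (0 : Fin 2 → ℝ) 1) x.1 y.1 :=
    (isPathConnected_sphere hr 0 zero_le_one).joinedIn _ (by simpa using hx) _ (by simpa using hy)
  have h2 : ∀ t, h1.somePath t ∈ sphere (0 : Fin 2 → ℝ) 1 := h1.somePath_mem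
  refine ⟨⟨⟨fun t => ⟨h1.somePath t, sphere_subset_closedBall (h2 t)⟩, ?_⟩, ?_, ?_⟩, ?_⟩
  · exact h1.somePath.continuous.subtype_mk _
  · exact Subtype.ext h1.somePath.source
  · exact Subtype.ext h1.somePath.target
  · intro t
    exact mem_sphere_zero_iff_norm.1 (h2 t)

section down

variable {W : Type} [TopologicalSpace W] {A B : Set W} {Φ : C(Dk 2, W)}

/-- paths below can be deformed into `A` -/
theorem down (h : CellData 2 Unit B A fun _ => Φ)
    (hb : ∀ z : Dk 2, ‖(z : Fin 2 → ℝ)‖ = 1 → Φ z ∈ A) (u v : B) (γ : Path u v)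
    (hu : u.1 ∈ A) (hv : v.1 ∈ A) : ∃ δ : Path u v, γ.Homotopic δ ∧ ∀ t, (δ t).1 ∈ A := by
  have key := YP.dec h A subset_rfl hb
    (fun u v π => ∃ δ : Path u v, π = Path.Homotopic.Quotient.mk δ ∧ ∀ t, (δ t).1 ∈ A)
    ?_ ?_ ?_ u v γ hu hv
  · obtain ⟨δ, h1, h2⟩ := key
    exact ⟨δ, Path.Homotopic.Quotient.eq.1 h1, h2⟩
  · rintro u v w π ρ - - - ⟨δ, rfl, hδ⟩ ⟨ε, rfl, hε⟩
    refine ⟨δ.trans ε, (Path.Homotopic.Quotient.mk_trans _ _).symm, fun t => ?_⟩
    rw [Path.trans_apply]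
    split_ifs
    · exact hδ _
    · exact hε _
  · intro u v γ _ _ hγ
    exact ⟨γ, rfl, hγ⟩
  · intro x y β hx hy
    obtain ⟨σ, hσ⟩ := sq_joined x y hx hy
    have : ContractibleSpace (Dk 2) :=
      (convex_closedBall (0 : Fin 2 → ℝ) 1).contractibleSpace ⟨0, by simp⟩
    have h1 : β.Homotopic σ := SimplyConnectedSpace.paths_homotopic _ _
    exact ⟨σ.map (YP.phB h).continuous, Path.Homotopic.Quotient.eq.2 (h1.map (YP.phB h)),
      fun t => hb _ (hσ t)⟩

theorem join_down (h : CellData 2 Unit B A fun _ => Φ)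
    (hb : ∀ z : Dk 2, ‖(z : Fin 2 → ℝ)‖ = 1 → Φ z ∈ A) (x : B) :
    ∃ y : B, y.1 ∈ A ∧ Joined x y := by
  rcases h.cover x.1 x.2 with h1 | ⟨g, z, hz⟩
  · exact ⟨x, h1, Joined.refl x⟩
  · have hm : ‖((YP.mone 2 : Dk 2) : Fin 2 → ℝ)‖ = 1 := by
      change ‖(fun _ => -1 : Fin 2 → ℝ)‖ = 1
      refine le_antisymm ((pi_norm_le_iff_of_nonneg zero_le_one).2 fun _ => by norm_num) ?_
      have := norm_le_pi_norm (fun _ => -1 : Fin 2 → ℝ) 0
      rwa [norm_neg, norm_one] at this
    refine ⟨YP.phB h (YP.mone 2), hb _ hm, ?_⟩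
    obtain ⟨σ⟩ := (YP.pcDk 2).joined z (YP.mone 2)
    have hx : YP.phB h z = x := Subtype.ext hz
    rw [← hx]
    exact ⟨σ.map (YP.phB h).continuous⟩

/-- one cell -/
theorem step {F : Type} [TopologicalSpace F] {q : F → W} (cov : IsCoveringMap q)
    (h : CellData 2 Unit B A fun _ => Φ)
    (hb : ∀ z : Dk 2, ‖(z : Fin 2 → ℝ)‖ = 1 → Φ z ∈ A)
    (hs : IsSimplyConnected (q ⁻¹' A)) : IsSimplyConnected (q ⁻¹' B) := by
  have hc : IsCoveringMap (B.restrictPreimage q) := cov.restrictPreimage B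
  refine kl hc (Subtype.val ⁻¹' A) (fun u v γ hu hv => down h hb u v γ hu hv)
    (fun x => join_down h hb x) ?_
  have he : (Subtype.val : (q ⁻¹' B : Set F) → F) ''
      ((B.restrictPreimage q) ⁻¹' (Subtype.val ⁻¹' A)) = q ⁻¹' A := by
    ext y
    constructor
    · rintro ⟨z, hz, rfl⟩
      exact hz
    · intro hy
      exact ⟨⟨y, h.sub hy⟩, hy, rfl⟩
  rw [← IsEmbedding.subtypeVal.isSimplyConnected_image, he]
  exact hs

end down

/-- all cells -/
theorem all {W F : Type} [TopologicalSpace W] [T2Space W] [TopologicalSpace F] {q : F → W}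
    (cov : IsCoveringMap q) {C : Set W} (hC : IsClosed C) (hs : IsSimplyConnected (q ⁻¹' C))
    {B : Set W} {t : ℕ} (h : Sph C B t) :
    IsClosed B ∧ C ⊆ B ∧ IsSimplyConnected (q ⁻¹' B) := by
  induction h with
  | base => exact ⟨hC, subset_rfl, hs⟩
  | cell Φ a _ ha hΦ hatt ih =>
    obtain ⟨i1, i2, i3⟩ := ih
    have h1 := CC.cc1 _ 2 _ _ Φ i1 hatt
    refine ⟨?_, i2.trans h1.sub, step cov h1 (fun z hz => ?_) i3⟩
    · rw [hatt.eq]
      exact i1.union (isCompact_range Φ.continuous).isClosed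
    · rw [hΦ z hz]
      exact i2 ha

/-- ROW TW3. -/
theorem tw3 : SpecSCW := by
  intro G W F _ _ _ _ _ _ q hq C t hC hS hs
  obtain ⟨_, _, h3⟩ := all hq.isCoveringMap hC hs hS
  rw [preimage_univ] at h3
  exact ((Homeomorph.Set.univ F).toHomotopyEquiv.simplyConnectedSpace_iff).1 h3

end Vale.Agent.P246.H111
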